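import Vale.Agent.P207.H106.Proj

/-!
# P207: closeness of subspaces of equal dimension is symmetric
-/

open Module

noncomputable section

namespace Vale.Agent.P207.H732

open Vale.Agent.P207.H106

/-- Closeness of subspaces of equal dimension is symmetric. -/
theorem close_symm (W : Type*) [NormedAddCommGroup W] [NormedSpace ℝ W] [FiniteDimensional ℝ W] :
    ∃ c : ℝ, 1 ≤ c ∧ ∀ S S' : Submodule ℝ W, finrank ℝ S' = finrank ℝ S → ∀ δ : ℝ, 0 ≤ δ →
      c * δ ≤ 1 / 2 → (∀ s' ∈ S', ∃ s ∈ S, ‖s' - s‖ ≤ δ * ‖s'‖) →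
      ∀ s ∈ S, ∃ s' ∈ S', ‖s - s'‖ ≤ 2 * c * δ * ‖s‖ := by
  obtain ⟨c, hc1, hc⟩ := exists_isQ W
  refine ⟨c, hc1, fun S S' hd δ hδ hcδ h s hs => ?_⟩
  obtain ⟨p, hp, hpc⟩ := hc S
  have hc0 : 0 ≤ c := by linarith
  -- the projection is small on `S'`
  have hsm : ∀ s' ∈ S', ‖p s'‖ ≤ c * δ * ‖s'‖ := by
    intro s' hs'
    obtain ⟨s0, h1, h2⟩ := h s' hs'
    have e : p s' = p (s' - s0) := by rw [map_sub, hp.ker s0 h1, sub_zero]
    rw [e]
    calc ‖p (s' - s0)‖ ≤ ‖p‖ * ‖s' - s0‖ := p.le_opNorm _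
      _ ≤ c * (δ * ‖s'‖) := mul_le_mul hpc h2 (norm_nonneg _) hc0
      _ = c * δ * ‖s'‖ := by ring
  let T : S' →ₗ[ℝ] S :=
    { toFun := fun s' => ⟨(s' : W) - p s', hp.sub _⟩
      map_add' := fun a b => by
        apply Subtype.ext
        show ((a + b : S') : W) - p ((a + b : S') : W) = ((a : W) - p a) + ((b : W) - p b)
        rw [Submodule.coe_add, map_add]
        abel
      map_smul' := fun r a => by
        apply Subtype.ext
        show ((r • a : S') : W) - p ((r • a : S') : W) = r • ((a : W) - p a)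
        rw [Submodule.coe_smul, map_smul, smul_sub] }
  have hT : ∀ s' : S', ((T s' : S) : W) = (s' : W) - p s' := fun _ => rfl
  have hinj : Function.Injective T := by
    rw [injective_iff_map_eq_zero]
    intro s' h0
    have h1 : (s' : W) - p s' = 0 := by
      rw [← hT, h0]
      rfl
    have h2 : (s' : W) = p s' := sub_eq_zero.1 h1
    have h3 := hsm s' s'.2
    rw [← h2] at h3
    have h4 : ‖(s' : W)‖ ≤ 1 / 2 * ‖(s' : W)‖ :=
      h3.trans (mul_le_mul_of_nonneg_right hcδ (norm_nonneg _))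
    have h5 : ‖(s' : W)‖ = 0 := le_antisymm (by linarith) (norm_nonneg _)
    exact Subtype.ext (norm_eq_zero.1 h5)
  have hsur : Function.Surjective T :=
    (LinearMap.injective_iff_surjective_of_finrank_eq_finrank hd).1 hinj
  obtain ⟨s', hs'⟩ := hsur ⟨s, hs⟩
  have h1 : (s' : W) - p s' = s := by
    rw [← hT, hs']
  refine ⟨s', s'.2, ?_⟩
  have h2 : s - (s' : W) = -p s' := by
    rw [← h1]
    abel
  have h3 := hsm s' s'.2
  have h4 : ‖(s' : W)‖ ≤ 2 * ‖s‖ := by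
    have h5 : ‖(s' : W)‖ ≤ ‖s‖ + ‖p s'‖ := by
      calc ‖(s' : W)‖ = ‖s + p s'‖ := by rw [← h1, sub_add_cancel]
        _ ≤ ‖s‖ + ‖p s'‖ := norm_add_le _ _
    have h6 : ‖p s'‖ ≤ 1 / 2 * ‖(s' : W)‖ :=
      h3.trans (mul_le_mul_of_nonneg_right hcδ (norm_nonneg _))
    linarith
  rw [h2, norm_neg]
  calc ‖p s'‖ ≤ c * δ * ‖(s' : W)‖ := h3
    _ ≤ c * δ * (2 * ‖s‖) := mul_le_mul_of_nonneg_left h4 (mul_nonneg hc0 hδ)
    _ = 2 * c * δ * ‖s‖ := by ring

end Vale.Agent.P207.H732
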