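import Vale.Agent.P207.H686.K.ZDk
import Vale.Agent.P207.H340.SInvG

/-!
# P207, line N4, b < 2a: one step of S-INV over the zoom data of general order

The theorem `near_dist` of `H340/SInvG` over `ZDk` (general order `k0`), and the same in the form
used by the type lemma: `near_dist_map`.
-/

open Set Filter Topology Metric
open scoped ContDiff

set_option maxSynthPendingDepth 3

noncomputable section

namespace Vale.Agent.P207.H732

open Vale.Agent.P207.H686 Vale.Agent.P207.H340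

variable {k0 : ℕ} {E W X : Type*} [NormedAddCommGroup E] [NormedSpace ℝ E]
  [NormedAddCommGroup W] [NormedSpace ℝ W]

/-- **LEMMA Q** on the disc of radius `r` (at the centre), abstract form. -/
def LemQa (N : X → E → W →L[ℝ] ℝ) (S : X → Submodule ℝ W) (r : ℝ) : Prop :=
  ∀ e : ℝ, 0 < e → ∀ M : ℕ → ℝ, ∃ C : ℝ, ∀ (v : X) (σ : E → W) (F : E → ℝ) (δ : ℝ),
    ContDiffOn ℝ ∞ σ (ball 0 r) → ContDiffOn ℝ ∞ F (ball 0 r) →
    (∀ k, ∀ u ∈ ball (0 : E) r, ‖iteratedFDeriv ℝ k σ u‖ ≤ M k) →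
    (∀ k, ∀ u ∈ ball (0 : E) r, ‖iteratedFDeriv ℝ k F u‖ ≤ M k) →
    0 < δ → δ ≤ 1 → (∀ u ∈ ball (0 : E) r, |N v u (σ u) - F u| ≤ δ) →
    ∃ s ∈ S v, ‖σ 0 - s‖ ≤ C * δ ^ (1 - e)

/-- **S-INV at one time.** -/
theorem near_dist_abs {N : X → E → W →L[ℝ] ℝ} {S : X → Submodule ℝ W} {A : Act E W} {r : ℝ}
    (hr0 : 0 < r) (hQ : LemQa N S r)
    (hS : ∀ v, ∀ s ∈ S v, ContDiffOn ℝ ∞ (fun x => N v x s) (ball 0 1)) {Cb : ℕ → ℝ}
    (hCb : ∀ v, ∀ s ∈ S v, ∀ k, ∀ x ∈ ball (0 : E) 1,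
      ‖iteratedFDeriv ℝ k (fun y => N v y s) x‖ ≤ Cb k * ‖s‖)
    {e : ℝ} (he : 0 < e) (he1 : e < 1) (M : ℕ → ℝ) :
    ∃ C : ℝ, 0 ≤ C ∧ ∃ t0 : ℝ, 0 < t0 ∧ ∀ (y y' : X) (hinv : E →L[ℝ] E) (t : ℝ), 0 < t → t ≤ t0 →
      NearK A r M (1 - e) t (N y) (N y') hinv → ∀ s ∈ S y, ∃ s' ∈ S y',
        ‖A.pull hinv s - s'‖ ≤ C * t ^ (1 - e) * ‖s‖ := by
  obtain ⟨C, hC⟩ := hQ e he (fun k => max (secM M k) (funM Cb M k))
  set K : ℝ := max 1 ((Cb 1 + 1) * M 0) with hK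
  have hK1 : 1 ≤ K := le_max_left _ _
  have hK0 : 0 < K := one_pos.trans_le hK1
  set C' : ℝ := |C| * K ^ (1 - e) + (|M 1| + |M 0| + |M 1|) * |M 0| with hC'
  refine ⟨C', by positivity, min K⁻¹ 1, lt_min (inv_pos.2 hK0) one_pos, ?_⟩
  intro y y' hinv t ht htt0 hN s hs
  have ht1 : t ≤ 1 := htt0.trans (min_le_right _ _)
  have htK : K * t ≤ 1 := by
    have := htt0.trans (min_le_left _ _)
    calc K * t ≤ K * K⁻¹ := by gcongr
      _ = 1 := mul_inv_cancel₀ hK0.ne'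
  rcases eq_or_ne s 0 with rfl | hs0
  · exact ⟨0, Submodule.zero_mem _, by simp⟩
  obtain ⟨κ, g, B, hκ, hB, hκM, hBM, hnear, hh⟩ := hN
  have hsn : 0 < ‖s‖ := norm_pos_iff.2 hs0
  set s1 : W := ‖s‖⁻¹ • s with hs1
  have hs1m : s1 ∈ S y := Submodule.smul_mem _ _ hs
  have hs1n : ‖s1‖ = 1 := by
    rw [hs1, norm_smul, norm_inv, norm_norm, inv_mul_cancel₀ hsn.ne']
  have h0r : (0 : E) ∈ ball (0 : E) r := mem_ball_self hr0
  have hM0 : 0 ≤ M 0 := (norm_nonneg _).trans (hκM 0 0 h0r)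
  have hM1 : 0 ≤ M 1 := (norm_nonneg _).trans (hκM 1 0 h0r)
  have h01 : (0 : E) ∈ ball (0 : E) 1 := mem_ball_self one_pos
  have hCbs : ∀ k, 0 ≤ Cb k := fun k => by
    have := (norm_nonneg _).trans (hCb y s1 hs1m k 0 h01)
    rwa [hs1n, mul_one] at this
  have hop : IsOpen (ball (0 : E) r) := isOpen_ball
  have hmaps : MapsTo κ (ball 0 r) (ball 0 1) := fun u hu => (hnear u hu).1
  -- the section and the function
  have hσs := sec_smooth A hop hκ s1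
  have hσM : ∀ k, ∀ u ∈ ball (0 : E) r,
      ‖iteratedFDeriv ℝ k (fun u => A.pull (fderiv ℝ κ u) s1) u‖ ≤ secM M k := fun k u hu =>
    sec_bound A hop hκ hs1n.le hu (fun k => hκM k u hu) k
  have hNs : ContDiffOn ℝ ∞ (fun x => N y x s1) (ball 0 1) := hS y s1 hs1m
  have hF1s : ContDiffOn ℝ ∞ (fun u => N y (κ u) s1) (ball 0 r) := hNs.comp hκ hmaps
  have hF2s : ContDiffOn ℝ ∞ (fun u => B u (A.pull (fderiv ℝ κ u) s1)) (ball 0 r) :=
    hB.clm_apply hσs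
  have hF1M : ∀ k, ∀ u ∈ ball (0 : E) r,
      ‖iteratedFDeriv ℝ k (fun u => N y (κ u) s1) u‖ ≤ k.factorial * maj Cb k * maj M k ^ k :=
    fun k u hu => norm_iter_comp (g := fun x => N y x s1) hop isOpen_ball hκ hNs hmaps hu
      (fun k => hκM k u hu) (fun k => by
        have := hCb y s1 hs1m k (κ u) (hmaps hu)
        rwa [hs1n, mul_one] at this) k
  have hidn : ‖(ContinuousLinearMap.id ℝ (W →L[ℝ] ℝ))‖ ≤ 1 := ContinuousLinearMap.norm_id_le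
  have hF2M : ∀ k, ∀ u ∈ ball (0 : E) r,
      ‖iteratedFDeriv ℝ k (fun u => B u (A.pull (fderiv ℝ κ u) s1)) u‖ ≤
        1 * ∑ i ∈ Finset.range (k + 1), (k.choose i : ℝ) * M i * secM M (k - i) :=
    fun k u hu => norm_iter_bilin (ContinuousLinearMap.id ℝ (W →L[ℝ] ℝ)) hop hB hσs hidn hu
      (fun k => hBM k u hu) (fun k => hσM k u hu) k
  have hFM : ∀ k, ∀ u ∈ ball (0 : E) r,
      ‖iteratedFDeriv ℝ k (fun u => N y (κ u) s1 + B u (A.pull (fderiv ℝ κ u) s1)) u‖ ≤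
        funM Cb M k := fun k u hu => by
    have h1 : ContDiffAt ℝ k (fun u => N y (κ u) s1) u :=
      (hF1s.contDiffAt (hop.mem_nhds hu)).of_le (by exact_mod_cast le_top)
    have h2 : ContDiffAt ℝ k (fun u => B u (A.pull (fderiv ℝ κ u) s1)) u :=
      (hF2s.contDiffAt (hop.mem_nhds hu)).of_le (by exact_mod_cast le_top)
    have h3 := fun_iteratedFDeriv_add_apply h1 h2
    rw [h3]
    exact (norm_add_le _ _).trans (add_le_add (hF1M k u hu) (hF2M k u hu))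
  -- closeness
  have hlip : ∀ a ∈ ball (0 : E) 1, ∀ b ∈ ball (0 : E) 1,
      ‖N y a s1 - N y b s1‖ ≤ Cb 1 * ‖a - b‖ := fun a ha b hb => by
    refine (convex_ball (0 : E) 1).norm_image_sub_le_of_norm_fderiv_le
      (f := fun x => N y x s1) (fun x hx =>
        (hNs.contDiffAt (isOpen_ball.mem_nhds hx)).differentiableAt (by simp)) (fun x hx => ?_) hb ha
    have := hCb y s1 hs1m 1 x hx
    rwa [norm_iteratedFDeriv_one, hs1n, mul_one] at this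
  have hclose : ∀ u ∈ ball (0 : E) r, |N y' u (A.pull (fderiv ℝ κ u) s1) -
      (N y (κ u) s1 + B u (A.pull (fderiv ℝ κ u) s1))| ≤ K * t := fun u hu => by
    obtain ⟨h1, h2, h3, h4⟩ := hnear u hu
    have h5 := h4 s1
    rw [hs1n, mul_one] at h5
    have h6 := hlip (g u) h2 (κ u) h1
    rw [Real.norm_eq_abs] at h6
    calc |N y' u (A.pull (fderiv ℝ κ u) s1) -
          (N y (κ u) s1 + B u (A.pull (fderiv ℝ κ u) s1))|
        = |(N y' u (A.pull (fderiv ℝ κ u) s1) - N y (g u) s1 -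
            B u (A.pull (fderiv ℝ κ u) s1)) + (N y (g u) s1 - N y (κ u) s1)| := by
          congr 1; ring
      _ ≤ M 0 * t + Cb 1 * ‖g u - κ u‖ := (abs_add_le _ _).trans (add_le_add h5 h6)
      _ ≤ M 0 * t + Cb 1 * (M 0 * t) := by gcongr; exact hCbs 1
      _ = (Cb 1 + 1) * M 0 * t := by ring
      _ ≤ K * t := by gcongr; exact le_max_right _ _
  obtain ⟨s', hs', hd⟩ := hC y' _ _ (K * t) hσs (hF1s.add hF2s)
    (fun k u hu => (hσM k u hu).trans (le_max_left _ _))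
    (fun k u hu => (hFM k u hu).trans (le_max_right _ _)) (by positivity) htK hclose
  -- the end
  refine ⟨‖s‖ • s', Submodule.smul_mem _ _ hs', ?_⟩
  have hκ0 : ‖fderiv ℝ κ 0‖ ≤ M 1 := by
    have := hκM 1 0 h0r
    rwa [norm_iteratedFDeriv_one] at this
  have hte : t ^ (1 - e) ≤ 1 := Real.rpow_le_one ht.le ht1 (by linarith)
  have hhinv : ‖hinv‖ ≤ M 1 + M 0 := by
    calc ‖hinv‖ = ‖fderiv ℝ κ 0 + (hinv - fderiv ℝ κ 0)‖ := by congr 1; abel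
      _ ≤ M 1 + M 0 * t ^ (1 - e) := (norm_add_le _ _).trans (add_le_add hκ0 hh)
      _ ≤ M 1 + M 0 * 1 := by gcongr
      _ = M 1 + M 0 := by ring
  have h1 : ‖A.pull hinv s1 - s'‖ ≤ C' * t ^ (1 - e) := by
    have e1 : A.pull hinv s1 - s' =
        (A.pull hinv s1 - A.pull (fderiv ℝ κ 0) s1) + (A.pull (fderiv ℝ κ 0) s1 - s') := by abel
    have e2 : ‖A.pull hinv s1 - A.pull (fderiv ℝ κ 0) s1‖ ≤
        (M 1 + M 0 + M 1) * (M 0 * t ^ (1 - e)) * 1 := by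
      refine (A.norm_pull_sub _ _ _).trans ?_
      rw [hs1n]
      gcongr
    have e3 : (K * t) ^ (1 - e) = K ^ (1 - e) * t ^ (1 - e) := Real.mul_rpow hK0.le ht.le
    rw [e1]
    calc ‖(A.pull hinv s1 - A.pull (fderiv ℝ κ 0) s1) + (A.pull (fderiv ℝ κ 0) s1 - s')‖
        ≤ (M 1 + M 0 + M 1) * (M 0 * t ^ (1 - e)) * 1 + C * (K * t) ^ (1 - e) :=
          (norm_add_le _ _).trans (add_le_add e2 hd)
      _ ≤ (M 1 + M 0 + M 1) * (M 0 * t ^ (1 - e)) * 1 + |C| * (K * t) ^ (1 - e) := by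
          gcongr
          exact le_abs_self C
      _ = C' * t ^ (1 - e) := by
          rw [e3, hC', abs_of_nonneg hM0, abs_of_nonneg hM1]
          ring
  have e4 : A.pull hinv s - ‖s‖ • s' = ‖s‖ • (A.pull hinv s1 - s') := by
    rw [smul_sub, ← map_smul, hs1, smul_smul, mul_inv_cancel₀ hsn.ne', one_smul]
  rw [e4, norm_smul, norm_norm]
  calc ‖s‖ * ‖A.pull hinv s1 - s'‖ ≤ ‖s‖ * (C' * t ^ (1 - e)) := by gcongr
    _ = C' * t ^ (1 - e) * ‖s‖ := by ring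

/-- **LEMMA Q** on the disc of radius `r` (at the centre). -/
def LemQk (D : ZDk k0 E W X) (r : ℝ) : Prop := LemQa D.N D.Sm r

/-- **S-INV at one time**, over the zoom data. -/
theorem near_dist_k {D : ZDk k0 E W X} {A : Act E W} {r : ℝ} (hr0 : 0 < r) (hQ : LemQk D r)
    {Cb : ℕ → ℝ} (hCb : ∀ v, ∀ s ∈ D.Sm v, ∀ k, ∀ x ∈ ball (0 : E) 1,
      ‖iteratedFDeriv ℝ k (fun y => D.N v y s) x‖ ≤ Cb k * ‖s‖)
    {e : ℝ} (he : 0 < e) (he1 : e < 1) (M : ℕ → ℝ) :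
    ∃ C : ℝ, 0 ≤ C ∧ ∃ t0 : ℝ, 0 < t0 ∧ ∀ (y y' : X) (hinv : E →L[ℝ] E) (t : ℝ), 0 < t → t ≤ t0 →
      NearK A r M (1 - e) t (D.N y) (D.N y') hinv → ∀ s ∈ D.Sm y, ∃ s' ∈ D.Sm y',
        ‖A.pull hinv s - s'‖ ≤ C * t ^ (1 - e) * ‖s‖ :=
  near_dist_abs hr0 hQ (fun _ _ hs => hs) hCb he he1 M

end Vale.Agent.P207.H732
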